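import Vale.Agent.P244.P0.Id
import Vale.Agent.P244.Kit.Sy

/-!
P0: the sources of the differentiated equations are symbols.
-/

namespace Vale.Agent.P244.P0

open scoped ContDiff Topology
open Set Filter Real

noncomputable section

/-- The context of the Euler derivative on `[0, 1]`. -/
def cx {ι : Type} (N : ι → ℝ → ℝ) (hN : ∀ i y, 1 ≤ N i y) : Ctx ι :=
  ⟨fun y => y, fun _ => Icc 0 1, fun _ => Icc 0 1, N, contDiff_id, fun _ => ro_Icc,
    fun _ => subset_rfl, fun i y _ => hN i y⟩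

/-- Symbols of weight one. -/
abbrev S1 {ι : Type} (c : Ctx ι) (n : ℕ) (g : ι → ℝ → ℝ) : Prop := c.Sy n (fun _ _ => 1) g

section gen

variable {ι : Type} {c : Ctx ι} {g g' : ι → ℝ → ℝ} {a m n : ℕ}

theorem s1_mul (h : S1 c a g) (h' : S1 c m g') (h1 : m ≤ a) (h2 : 1 ≤ a) :
    S1 c m fun i y => g i y * g' i y := by
  have b : c.Bd (fun _ _ => 1) fun _ _ => (1 : ℝ) * 1 :=
    (Ctx.Bd.refl' c _).congr' (fun _ _ _ => one_mul _) fun _ _ _ => rfl
  cases m with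
  | zero => exact ((h.of_le h2).mul_top h').mono b
  | succ m => exact ((h.of_le h1).mul h').mono b

theorem s1_pmul {φ : ℝ → ℝ} (hφ : ContDiff ℝ ∞ φ) (h : S1 c m g) :
    S1 c m fun i y => φ y * g i y :=
  s1_mul (Ctx.sy_poly (n := m + 1) hφ) h (Nat.le_succ m) (Nat.succ_pos m)

theorem s1_lin {L R : ι → ℝ → ℝ} (hs : c.Smo g) (h0 : c.Bd (fun _ _ => 1) g) (hL : S1 c n L)
    (hR : S1 c n R) (e : ∀ i, ∀ y ∈ c.J i, c.D g i y = g i y * L i y + R i y) :
    S1 c (n + 1) g := by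
  induction n with
  | zero =>
    refine Ctx.sy_succ hs h0 ⟨hs.D, ?_⟩
    exact (((h0.mul' hL.top).congr' (fun _ _ _ => rfl) fun _ _ _ => (one_mul _).symm).add'
      hR.top).congr' (fun i y hy => e i y (c.sub i hy)) fun _ _ _ => rfl
  | succ n ih =>
    exact Ctx.sy_succ hs h0
      (((s1_mul (ih hL.pred hR.pred) hL le_rfl (Nat.succ_pos n)).add hR).congr e)

theorem s1_iter (j : ℕ) (h : S1 c (m + j) g) : S1 c m (c.D^[j] g) := by
  induction j generalizing g with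
  | zero => exact h
  | succ j ih => exact ih (Ctx.Sy.D h)

end gen

variable {ι : Type} {N : ι → ℝ → ℝ} {hN : ∀ i y, 1 ≤ N i y} {t : ι → ℝ}

theorem cx_iter (u : ι → Fn) (j : ℕ) :
    (cx N hN).D^[j] (fun i => u i (t i)) = fun i => XX^[j] (u i) (t i) := by
  funext i
  rw [Ctx.D_iter, XX_iter_eq_dl]
  rfl

variable {S : ι → St} {T : ι → ℝ}

theorem cx_smo (ht : ∀ i, t i ∈ Icc 0 (T i)) {u : ι → Fn} (hu : ∀ i, Sm (Icc 0 (T i)) (u i)) :
    (cx N hN).Smo fun i => u i (t i) := fun i _ hy => (hu i).slice (ht i) _ hy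

variable (hS : ∀ i, (S i).Sol (T i)) (ht : ∀ i, t i ∈ Icc 0 (T i)) {l : ℕ}
  (hA : S1 (cx N hN) (l + 2) fun i => XX (S i).A (t i))
  (hβ : S1 (cx N hN) (l + 2) fun i => XX (S i).β (t i))
  (hμ : (cx N hN).Bd (fun _ _ => 1) fun i => mu (S i) (t i))
  (hτ : (cx N hN).Bd (fun _ _ => 1) fun i => tt (S i) (t i))

include hA in
theorem sy_LL : S1 (cx N hN) (l + 2) fun i => LL (S i) (t i) :=
  (Ctx.sy_poly (φ := fun _ => 1) contDiff_const).add (hA.cmul 2)

include hA hβ in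
theorem sy_WB : S1 (cx N hN) (l + 2) fun i => WB (S i) (t i) :=
  ((((s1_mul hA hA le_rfl (by omega)).cmul 4).add
    ((s1_mul hβ hβ le_rfl (by omega)).cmul 5)).cmul (-2)).congr fun i y _ => by
      simp only [WB, sq]

include hS ht hA hβ hμ in
theorem sy_mu : S1 (cx N hN) (l + 2) fun i => mu (S i) (t i) :=
  (s1_lin (cx_smo ht fun i => sm_mu (hS i)) hμ
    ((Ctx.sy_poly (φ := fun _ => 1) contDiff_const).add (sy_LL hA))
    (s1_pmul contDiff_id (sy_WB hA hβ)) fun i y hy =>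
      (XX_mu (hS i) (ht i) hy).trans (by rw [mul_comm]; rfl)).pred

include hS ht hA hβ hτ in
theorem sy_tt : S1 (cx N hN) (l + 2) fun i => tt (S i) (t i) :=
  (s1_lin (cx_smo ht fun i => sm_tt (hS i)) hτ ((sy_LL hA).sub (hβ.cmul 2))
    (Ctx.sy_poly (φ := fun _ => 0) contDiff_const) fun i y hy =>
      (XX_tt (hS i) (ht i) hy).trans (by rw [mul_comm, add_zero])).pred

include hA in
theorem sy_dd (j : ℕ) : S1 (cx N hN) (l + 2) fun i => dd (S i) j (t i) :=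
  (Ctx.sy_poly (φ := fun y => 12 * (1 - 2 * y) - 4 * (1 - y)) (by fun_prop)).sub
    (((Ctx.sy_poly (φ := fun y => 4 * y) (by fun_prop)).add
      (s1_pmul (φ := fun y => 4 * (1 - y)) (by fun_prop) (sy_LL hA))).cmul j)

include hS ht hA hβ hμ in
theorem sy_EE (j : ℕ) {m : ℕ} (hm : m ≤ l + 2)
    (hd : S1 (cx N hN) (m + 1) fun i => dd (S i) j (t i)) :
    S1 (cx N hN) m fun i => EE (S i) j (t i) :=
  ((((((sy_mu hS ht hA hβ hμ).cmul (-2)).add
    (s1_pmul (φ := fun y => 2 * (1 - y)) (by fun_prop) (sy_WB hA hβ))).of_le hm).add hd.D).sub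
    ((s1_mul (sy_LL hA) (sy_dd hA j) le_rfl (by omega)).of_le hm) :)

include hS ht hA hβ hμ in
theorem sy_Gs {u : ι → Fn} (hs : ∀ i, Sm (Icc 0 (T i)) (u i))
    (hu : S1 (cx N hN) (l + 2) fun i => XX (u i) (t i))
    (h1 : S1 (cx N hN) (l + 2) fun i y => XX (Gs (S i) (Icc 0 (T i)) (u i) 0) (t i) y -
      LL (S i) (t i) y * Gs (S i) (Icc 0 (T i)) (u i) 0 (t i) y) (j : ℕ) :
    ∀ m, m + j = l + 2 → S1 (cx N hN) m fun i => Gs (S i) (Icc 0 (T i)) (u i) (j + 1) (t i) := by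
  induction j with
  | zero =>
    rintro m rfl
    have hd : S1 (cx N hN) (l + 2 + 1) fun i => dd (S i) 0 (t i) :=
      (Ctx.sy_poly (φ := fun y => 12 * (1 - 2 * y) - 4 * (1 - y)) (by fun_prop)).congr
        fun i y _ => by simp [dd]
    exact ((s1_mul (sy_EE hS ht hA hβ hμ 0 le_rfl hd) hu le_rfl (by omega)).add h1).congr
      fun i y hy => gs_succ (hS i) (ht i) hy (hs i) 0
  | succ j ih =>
    intro m hm
    have a1 := ih (m + 1) (by omega)
    have a2 : S1 (cx N hN) m fun i => XX^[j + 1 + 1] (u i) (t i) := by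
      have := s1_iter (m := m) (j + 1) (hm ▸ hu)
      rwa [cx_iter] at this
    exact ((s1_mul (sy_EE hS ht hA hβ hμ (j + 1) (Nat.le_succ _) (sy_dd hA _)) a2 (by omega)
      (by omega)).add (a1.D.sub (s1_mul (sy_LL hA) a1.pred (by omega) (by omega)))).congr
      fun i y hy => gs_succ (hS i) (ht i) hy (hs i) (j + 1)

include hS ht hA hβ hμ in
theorem sy_GA (j m : ℕ) (h : m + j = l + 2) :
    S1 (cx N hN) m fun i => Gs (S i) (Icc 0 (T i)) (S i).A (j + 1) (t i) :=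
  sy_Gs hS ht hA hβ hμ (fun i => (hS i).sm_A) hA
    ((((s1_pmul (φ := fun y => 40 * y) (by fun_prop) hA).sub
      ((sy_mu hS ht hA hβ hμ).cmul 2)).add
      (s1_pmul (φ := fun y => 1 - 2 * y) (by fun_prop) (sy_WB hA hβ))).congr
      fun i _ hy => gs_A1 (hS i) (ht i) hy) j m h

include hS ht hA hβ hμ hτ in
theorem sy_Gβ (j m : ℕ) (h : m + j = l + 2) :
    S1 (cx N hN) m fun i => Gs (S i) (Icc 0 (T i)) (S i).β (j + 1) (t i) :=
  sy_Gs hS ht hA hβ hμ (fun i => (hS i).sm_β) hβ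
    (((s1_mul (sy_tt hS ht hA hβ hτ) hβ le_rfl (by omega)).cmul 8).congr
      fun i _ hy => gs_β1 (hS i) (ht i) hy) j m h

end

end Vale.Agent.P244.P0
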