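import Vale.Agent.P244.P0.Step
import Vale.Agent.P244.P0.Sym

/-!
P0: the induction step on the number of Euler derivatives, and the passage from `X` to `'`.
-/

namespace Vale.Agent.P244.P0

open scoped ContDiff Topology
open Set Filter Real

/-- The bounds at level `l`. -/
structure Hy (K : ℝ) (l : ℕ) (S : St) (t₁ : ℝ) : Prop where
  sol : S.Sol t₁
  bas : ∀ t ∈ Icc 0 t₁, ∀ y ∈ Icc (0 : ℝ) 1,
    y / 100 ≤ psi S t y ∧ |mu S t y| ≤ K ∧ |tt S t y| ≤ K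
  X : ∀ i, 1 ≤ i → i ≤ l → ∀ t ∈ Icc 0 t₁, ∀ y ∈ Icc (0 : ℝ) 1,
    |XX^[i] S.A t y| ≤ K ∧ |XX^[i] S.β t y| ≤ K

theorem src (K : ℝ) (hK : 0 ≤ K) (l : ℕ) : ∃ C, 0 ≤ C ∧ ∀ S t₁, Hy K (l + 2) S t₁ →
    ∀ t ∈ Icc 0 t₁, ∀ y ∈ Icc (0 : ℝ) 1, |Gs S (Icc 0 t₁) S.A (l + 2) t y| ≤ C ∧
      |Gs S (Icc 0 t₁) S.β (l + 2) t y| ≤ C ∧
      |Gs S (Icc 0 t₁) S.A (l + 3) t y| ≤ C * (1 + |XX^[l + 3] S.A t y| + |XX^[l + 3] S.β t y|) ∧
      |Gs S (Icc 0 t₁) S.β (l + 3) t y| ≤ C * (1 + |XX^[l + 3] S.A t y| + |XX^[l + 3] S.β t y|) := by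
  let ι := {x : St × ℝ × ℝ // Hy K (l + 2) x.1 x.2.1 ∧ x.2.2 ∈ Icc 0 x.2.1}
  let S : ι → St := fun i => i.1.1
  let T : ι → ℝ := fun i => i.1.2.1
  let t : ι → ℝ := fun i => i.1.2.2
  let N : ι → ℝ → ℝ := fun i y => 1 + |XX^[l + 3] (S i).A (t i) y| + |XX^[l + 3] (S i).β (t i) y|
  have hN : ∀ i y, 1 ≤ N i y := fun i y => by
    simp only [N]
    linarith [abs_nonneg (XX^[l + 3] (S i).A (t i) y), abs_nonneg (XX^[l + 3] (S i).β (t i) y)]
  have hS : ∀ i, (S i).Sol (T i) := fun i => i.2.1.sol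
  have ht : ∀ i, t i ∈ Icc 0 (T i) := fun i => i.2.2
  have e : ∀ i y, |1 * N i y| = N i y := fun i y => by
    rw [one_mul, abs_of_nonneg (zero_le_one.trans (hN i y))]
  have hA : S1 (cx N hN) (l + 2) fun i => XX (S i).A (t i) := by
    refine Ctx.sy_of_iter (cx_smo ht fun i => sm_XX (hS i).ti (hS i).sm_A) (fun k hk => ?_) ?_
    · rw [cx_iter]
      exact ⟨K, hK, fun i y hy => by
        simpa using (i.2.1.X (k + 1) (by omega) (by omega) _ (ht i) y hy).1⟩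
    · rw [cx_iter]
      refine ⟨1, zero_le_one, fun i y _ => le_of_le_of_eq ?_ ((one_mul _).trans (e i y)).symm⟩
      change |XX^[l + 3] (S i).A (t i) y| ≤ _
      simp only [N]
      linarith [abs_nonneg (XX^[l + 3] (S i).β (t i) y)]
  have hβ : S1 (cx N hN) (l + 2) fun i => XX (S i).β (t i) := by
    refine Ctx.sy_of_iter (cx_smo ht fun i => sm_XX (hS i).ti (hS i).sm_β) (fun k hk => ?_) ?_
    · rw [cx_iter]
      exact ⟨K, hK, fun i y hy => by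
        simpa using (i.2.1.X (k + 1) (by omega) (by omega) _ (ht i) y hy).2⟩
    · rw [cx_iter]
      refine ⟨1, zero_le_one, fun i y _ => le_of_le_of_eq ?_ ((one_mul _).trans (e i y)).symm⟩
      change |XX^[l + 3] (S i).β (t i) y| ≤ _
      simp only [N]
      linarith [abs_nonneg (XX^[l + 3] (S i).A (t i) y)]
  have hμ : (cx N hN).Bd (fun _ _ => 1) fun i => mu (S i) (t i) :=
    ⟨K, hK, fun i y hy => by simpa using (i.2.1.bas _ (ht i) y hy).2.1⟩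
  have hτ : (cx N hN).Bd (fun _ _ => 1) fun i => tt (S i) (t i) :=
    ⟨K, hK, fun i y hy => by simpa using (i.2.1.bas _ (ht i) y hy).2.2⟩
  obtain ⟨C1, p1, b1⟩ := (sy_GA hS ht hA hβ hμ (l + 1) 1 (by omega)).bd
  obtain ⟨C2, p2, b2⟩ := (sy_Gβ hS ht hA hβ hμ hτ (l + 1) 1 (by omega)).bd
  obtain ⟨C3, p3, b3⟩ := (sy_GA hS ht hA hβ hμ (l + 2) 0 (by omega)).top
  obtain ⟨C4, p4, b4⟩ := (sy_Gβ hS ht hA hβ hμ hτ (l + 2) 0 (by omega)).top
  refine ⟨C1 + C2 + C3 + C4, by positivity, fun S' t₁ h s hs y hy => ?_⟩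
  let i : ι := ⟨(S', t₁, s), h, hs⟩
  have a1 := b1 i y hy
  have a2 := b2 i y hy
  have a3 := (b3 i y hy).trans_eq (congrArg (C3 * ·) (e i y))
  have a4 := (b4 i y hy).trans_eq (congrArg (C4 * ·) (e i y))
  have n0 : 0 ≤ N i y := zero_le_one.trans (hN i y)
  rw [abs_one, mul_one] at a1 a2
  exact ⟨a1.trans (by linarith), a2.trans (by linarith),
    a3.trans (mul_le_mul_of_nonneg_right (by linarith) n0),
    a4.trans (mul_le_mul_of_nonneg_right (by linarith) n0)⟩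

theorem ind_low {S : St} {I : Set ℝ} {u : Fn} {t y K C C' a b : ℝ} {j : ℕ}
    (hy : y ∈ Icc (0 : ℝ) 1) (hA : |XX S.A t y| ≤ K) (h : |Gs S I u j t y| ≤ C) (h1 : C ≤ C')
    (h2 : 4 + 8 * K ≤ C') (h3 : |XX (XX^[j] u) t y| ≤ |a| + |b|) :
    |Pt S I (XX^[j] u) t y - dd S (j + 1) t y * XX (XX^[j] u) t y| ≤ C' * (1 + |a| + |b|) := by
  have e : Pt S I (XX^[j] u) t y - dd S (j + 1) t y * XX (XX^[j] u) t y =
      Gs S I u j t y + (4 + 8 * ((1 - y) * XX S.A t y)) * XX (XX^[j] u) t y := by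
    simp only [Gs, dd, LL, Function.iterate_succ_apply']
    push_cast
    ring
  have k1 : |(1 - y) * XX S.A t y| ≤ K := by
    rw [abs_mul, abs_of_nonneg (sub_nonneg.2 hy.2)]
    exact (mul_le_of_le_one_left (abs_nonneg _) (by linarith [hy.1])).trans hA
  have k2 : |4 + 8 * ((1 - y) * XX S.A t y)| ≤ C' :=
    abs_le.2 ⟨by linarith [(abs_le.1 k1).1], by linarith [(abs_le.1 k1).2]⟩
  rw [e, add_assoc, mul_add, mul_one]
  refine (abs_add_le _ _).trans (add_le_add (h.trans h1) ?_)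
  rw [abs_mul]
  exact mul_le_mul k2 h3 (abs_nonneg _) ((abs_nonneg _).trans k2)

theorem ind (K M : ℝ) (hK : 0 ≤ K) (l : ℕ) : ∃ K', 0 ≤ K' ∧ ∀ S t₁, Hy K (l + 2) S t₁ →
    (∀ y ∈ Icc (0 : ℝ) 1, |XX^[l + 3] S.A 0 y| ≤ M ∧ |XX^[l + 3] S.β 0 y| ≤ M) →
    Hy K' (l + 3) S t₁ := by
  obtain ⟨C, C0, hC⟩ := src K hK l
  have M0 := abs_nonneg M
  have M1 := le_abs_self M
  obtain ⟨M', hM⟩ := step (4 + 8 * K + C + |M|) (by linarith)
  refine ⟨max K M', hK.trans (le_max_left _ _), fun S t₁ h h0 => ⟨h.sol, fun t ht y hy =>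
    ⟨(h.bas t ht y hy).1, (h.bas t ht y hy).2.1.trans (le_max_left _ _),
      (h.bas t ht y hy).2.2.trans (le_max_left _ _)⟩, fun i i1 i2 t ht y hy => ?_⟩⟩
  rcases i2.eq_or_lt with rfl | i3
  swap
  · have := h.X i i1 (by omega) t ht y hy
    exact ⟨this.1.trans (le_max_left _ _), this.2.trans (le_max_left _ _)⟩
  have e : ∀ u : Fn, XX^[l + 3] u = XX (XX^[l + 2] u) := fun u =>
    Function.iterate_succ_apply' _ _ _
  have e' : ∀ u : Fn, XX^[l + 3 + 1] u = XX (XX (XX^[l + 2] u)) := fun u => by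
    rw [Function.iterate_succ_apply', e]
  have := hM S t₁ (XX^[l + 2] S.A) (XX^[l + 2] S.β) (dd S (l + 3)) h.sol.pos
    (h.sol.lt.le.trans h.sol.le) (sm_iter h.sol.ti h.sol.sm_A _) (sm_iter h.sol.ti h.sol.sm_β _)
    (fun t _ => by
      have : (0 : ℝ) ≤ (l + 3 : ℕ) := Nat.cast_nonneg _
      simp only [dd]
      linarith)
    (fun y hy => by
      rw [← e, ← e]
      exact ⟨(h0 y hy).1.trans (by linarith), (h0 y hy).2.trans (by linarith)⟩)
    (fun t ht y hy => by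
      obtain ⟨a1, a2, a3, a4⟩ := hC S t₁ h t ht y hy
      have a5 := h.X (l + 2) (by omega) le_rfl t ht y hy
      have a6 : |XX S.A t y| ≤ K := (h.X 1 le_rfl (by omega) t ht y hy).1
      simp only [Gs, e, e'] at a3 a4
      refine ⟨(h.bas t ht y hy).1, a5.1.trans (by linarith), a5.2.trans (by linarith),
        ind_low hy a6 a1 (by linarith) (by linarith) (le_add_of_nonneg_right (abs_nonneg _)),
        ind_low hy a6 a2 (by linarith) (by linarith) (le_add_of_nonneg_left (abs_nonneg _)),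
        a3.trans (mul_le_mul_of_nonneg_right (by linarith) (by positivity)),
        a4.trans (mul_le_mul_of_nonneg_right (by linarith) (by positivity))⟩) t ht y hy
  rw [e, e]
  exact ⟨this.1.trans (le_max_right _ _), this.2.trans (le_max_right _ _)⟩

theorem conv {ι : Type} {hN : ∀ (_ : ι) (_ : ℝ), (1 : ℝ) ≤ 1} (n : ℕ) {g : ι → ℝ → ℝ}
    (h : S1 (cx (fun _ _ => 1) hN) n g) : ∃ C, ∀ k ≤ n, ∀ i, ∀ y ∈ Icc (0 : ℝ) 1,
      |(dl fun y => 2 * (y * (1 - y)))^[k] (g i) y| ≤ C := by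
  induction n generalizing g with
  | zero =>
    obtain ⟨C, -, hC⟩ := h.top
    refine ⟨C, fun k hk i y hy => ?_⟩
    obtain rfl := Nat.le_zero.1 hk
    simpa [cx] using hC i y hy
  | succ n ih =>
    obtain ⟨C, -, hC⟩ := h.bd
    obtain ⟨C', hC'⟩ := ih (g := fun i => dl (fun y => 2 * (y * (1 - y))) (g i))
      ((s1_pmul (φ := fun y => 2 * (1 - y)) (by fun_prop) h.D).congr fun i y _ => by
        simp only [Ctx.D, dl, cx]
        ring)
    refine ⟨max C C', fun k hk i y hy => ?_⟩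
    cases k with
    | zero => exact le_trans (by simpa using hC i y hy) (le_max_left _ _)
    | succ k => exact (hC' k (by omega) i y hy).trans (le_max_right _ _)

end Vale.Agent.P244.P0
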