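import Vale.Agent.P244.A.Id0

/-!
P0: the operator `Pt`, its commutator with the Euler derivative and the differentiated equations.
-/

namespace Vale.Agent.P244.P0

open scoped ContDiff Topology
open Set Filter Real

noncomputable section

/-- `v` is the Euler derivative of `f` at `y`. -/
def HX (f : ℝ → ℝ) (v y : ℝ) : Prop := ∃ d, HasDerivWithinAt f d (Icc 0 1) y ∧ v = y * d

section hx

variable {f g : ℝ → ℝ} {v w y : ℝ}

theorem HX.eq {u : Fn} {t : ℝ} (h : HX (u t) v y) (hy : y ∈ Icc (0 : ℝ) 1) : XX u t y = v := by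
  obtain ⟨d, h1, rfl⟩ := h
  rw [XX, dY_eq hy h1]

theorem HX.of_eq (h : HX f v y) (e : w = v) : HX f w y := e ▸ h

theorem hx_sm {I : Set ℝ} {u : Fn} {t : ℝ} (h : Sm I u) (ht : t ∈ I) (hy : y ∈ Icc (0 : ℝ) 1) :
    HX (u t) (XX u t y) y := ⟨_, h.hasY ht hy, rfl⟩

theorem hx_const (c : ℝ) : HX (fun _ => c) 0 y := ⟨0, hasDerivWithinAt_const _ _ _, by ring⟩

theorem hx_id : HX (fun z => z) y y := ⟨1, hasDerivWithinAt_id _ _, by ring⟩

theorem HX.add (h : HX f v y) (h' : HX g w y) : HX (fun z => f z + g z) (v + w) y := by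
  obtain ⟨d, h1, rfl⟩ := h
  obtain ⟨e, h2, rfl⟩ := h'
  exact ⟨_, h1.fun_add h2, by ring⟩

theorem HX.sub (h : HX f v y) (h' : HX g w y) : HX (fun z => f z - g z) (v - w) y := by
  obtain ⟨d, h1, rfl⟩ := h
  obtain ⟨e, h2, rfl⟩ := h'
  exact ⟨_, h1.fun_sub h2, by ring⟩

theorem HX.mul (h : HX f v y) (h' : HX g w y) :
    HX (fun z => f z * g z) (v * g y + f y * w) y := by
  obtain ⟨d, h1, rfl⟩ := h
  obtain ⟨e, h2, rfl⟩ := h'
  exact ⟨_, h1.fun_mul h2, by ring⟩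

theorem HX.cmul (h : HX f v y) (c : ℝ) : HX (fun z => c * f z) (c * v) y := by
  obtain ⟨d, h1, rfl⟩ := h
  exact ⟨_, h1.const_mul c, by ring⟩

theorem HX.sq (h : HX f v y) : HX (fun z => f z ^ 2) (2 * f y * v) y := by
  obtain ⟨d, h1, rfl⟩ := h
  exact ⟨_, h1.fun_pow 2, by simp; ring⟩

theorem HX.exp (h : HX f v y) : HX (fun z => exp (f z)) (exp (f y) * v) y := by
  obtain ⟨d, h1, rfl⟩ := h
  exact ⟨_, h1.exp, by ring⟩

theorem hx_one_sub : HX (fun z => 1 - z) (-y) y := by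
  simpa using (hx_const (y := y) 1).sub hx_id

end hx

def psi (S : St) : Fn := fun t y => y * exp (2 * S.A t y)
def mu (S : St) : Fn := fun t y => y * psi S t y * S.B t y
def tt (S : St) : Fn := fun t y => psi S t y * exp (-2 * S.β t y)
def LL (S : St) : Fn := fun t y => 1 + 2 * XX S.A t y
def WB (S : St) : Fn := fun t y => -2 * (4 * XX S.A t y ^ 2 + 5 * XX S.β t y ^ 2)

/-- The parabolic operator. -/
def Pt (S : St) (I : Set ℝ) (u : Fn) : Fn := fun t y =>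
  psi S t y * (dT I u t y - 2 * (1 - y) * S.B t y * XX u t y) - 4 * (1 - y) * XX (XX u) t y

/-- The drift of the equation for `X^j u`. -/
def dd (S : St) (j : ℕ) : Fn := fun t y =>
  12 * (1 - 2 * y) - 4 * (1 - y) - j * (4 * y + 4 * (1 - y) * LL S t y)

/-- The source of the equation for `X^j u`. -/
def Gs (S : St) (I : Set ℝ) (u : Fn) (j : ℕ) : Fn := fun t y =>
  Pt S I (XX^[j] u) t y - dd S j t y * XX^[j + 1] u t y

def EE (S : St) (j : ℕ) : Fn := fun t y =>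
  -2 * mu S t y + 2 * (1 - y) * WB S t y + XX (dd S j) t y - LL S t y * dd S j t y

theorem sm_XX {I : Set ℝ} {u : Fn} (hI : TI I) (h : Sm I u) : Sm I (XX u) :=
  St.Sol.id0_sm fun _ ht _ hy => (h.smAt ht hy).XX hI ht hy

theorem sm_iter {I : Set ℝ} {u : Fn} (hI : TI I) (h : Sm I u) (j : ℕ) : Sm I (XX^[j] u) := by
  induction j with
  | zero => exact h
  | succ j ih =>
    rw [Function.iterate_succ_apply']
    exact sm_XX hI ih

theorem dT_XX {I : Set ℝ} {u : Fn} {t y : ℝ} (hI : TI I) (h : Sm I u) (ht : t ∈ I)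
    (hy : y ∈ Icc (0 : ℝ) 1) : dT I (XX u) t y = XX (dT I u) t y := by
  rw [dT_eq (u := XX u) hI ht (((h.dY hI).hasT ht hy).const_mul y), h.comm hI ht hy]
  rfl

variable {S : St} {t₁ t y : ℝ} {u : Fn} (h : S.Sol t₁)
include h

theorem sm_psi : Sm (Icc 0 t₁) (psi S) :=
  St.Sol.id0_sm fun _ ht _ hy => smAt_y.mul (St.Sol.id0_c (h.sm_A.smAt ht hy) 2).exp

theorem sm_mu : Sm (Icc 0 t₁) (mu S) :=
  St.Sol.id0_sm fun _ ht _ hy => (smAt_y.mul ((sm_psi h).smAt ht hy)).mul (h.sm_B.smAt ht hy)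

theorem sm_tt : Sm (Icc 0 t₁) (tt S) :=
  St.Sol.id0_sm fun _ ht _ hy =>
    ((sm_psi h).smAt ht hy).mul (St.Sol.id0_c (h.sm_β.smAt ht hy) (-2)).exp

theorem sm_LL : Sm (Icc 0 t₁) (LL S) :=
  St.Sol.id0_sm fun _ ht _ hy =>
    (smAt_const 1).add (St.Sol.id0_c ((sm_XX h.ti h.sm_A).smAt ht hy) 2)

theorem sm_dd (j : ℕ) : Sm (Icc 0 t₁) (dd S j) :=
  St.Sol.id0_sm fun _ ht _ hy =>
    ((St.Sol.id0_c ((smAt_const 1).sub (St.Sol.id0_c smAt_y 2)) 12).sub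
      (St.Sol.id0_c ((smAt_const 1).sub smAt_y) 4)).sub
      (St.Sol.id0_c ((St.Sol.id0_c smAt_y 4).add
        ((St.Sol.id0_c ((smAt_const 1).sub smAt_y) 4).mul ((sm_LL h).smAt ht hy))) j)

theorem sm_Pt (hu : Sm (Icc 0 t₁) u) : Sm (Icc 0 t₁) (Pt S (Icc 0 t₁) u) :=
  St.Sol.id0_sm fun _ ht _ hy =>
    (((sm_psi h).smAt ht hy).mul (((hu.dT h.ti).smAt ht hy).sub
      (((St.Sol.id0_c ((smAt_const 1).sub smAt_y) 2).mul (h.sm_B.smAt ht hy)).mul
        ((sm_XX h.ti hu).smAt ht hy)))).sub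
      ((St.Sol.id0_c ((smAt_const 1).sub smAt_y) 4).mul
        ((sm_XX h.ti (sm_XX h.ti hu)).smAt ht hy))

theorem sm_Gs (hu : Sm (Icc 0 t₁) u) (j : ℕ) : Sm (Icc 0 t₁) (Gs S (Icc 0 t₁) u j) :=
  St.Sol.id0_sm fun _ ht _ hy =>
    ((sm_Pt h (sm_iter h.ti hu j)).smAt ht hy).sub
      (((sm_dd h j).smAt ht hy).mul ((sm_iter h.ti hu (j + 1)).smAt ht hy))

variable (ht : t ∈ Icc 0 t₁) (hy : y ∈ Icc (0 : ℝ) 1)
include ht hy

theorem hx_psi : HX (psi S t) (LL S t y * psi S t y) y := by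
  have a := (hx_id (y := y)).mul ((hx_sm h.sm_A ht hy).cmul 2).exp
  refine (HX.of_eq a ?_ :)
  simp only [LL, psi]
  ring

theorem psi_XB : psi S t y * XX S.B t y = WB S t y := by
  have e : exp (2 * S.A t y) * exp (-2 * S.A t y) = 1 := by
    rw [← exp_add]
    simp
  simp only [psi, WB, XX, h.sol.eqB t ht y hy]
  linear_combination (-2 * y ^ 2 * (4 * dY S.A t y ^ 2 + 5 * dY S.β t y ^ 2)) * e

theorem XX_mu : XX (mu S) t y = (1 + LL S t y) * mu S t y + y * WB S t y := by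
  rw [HX.eq (u := mu S) ((hx_id.mul (hx_psi h ht hy)).mul (hx_sm h.sm_B ht hy)) hy,
    ← psi_XB h ht hy, mu]
  ring

theorem XX_tt : XX (tt S) t y = (LL S t y - 2 * XX S.β t y) * tt S t y := by
  rw [HX.eq (u := tt S) ((hx_psi h ht hy).mul ((hx_sm h.sm_β ht hy).cmul (-2)).exp) hy, tt]
  ring

theorem XX_Pt (hu : Sm (Icc 0 t₁) u) : XX (Pt S (Icc 0 t₁) u) t y =
    Pt S (Icc 0 t₁) (XX u) t y + LL S t y * Pt S (Icc 0 t₁) u t y +
      (4 * y + 4 * (1 - y) * LL S t y) * XX (XX u) t y +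
      (2 * mu S t y - 2 * (1 - y) * WB S t y) * XX u t y := by
  have u1 := sm_XX h.ti hu
  rw [HX.eq (u := Pt S (Icc 0 t₁) u) (((hx_psi h ht hy).mul ((hx_sm (hu.dT h.ti) ht hy).sub
    (((hx_one_sub.cmul 2).mul (hx_sm h.sm_B ht hy)).mul (hx_sm u1 ht hy)))).sub
    ((hx_one_sub.cmul 4).mul (hx_sm (sm_XX h.ti u1) ht hy))) hy, ← psi_XB h ht hy]
  simp only [Pt, mu, dT_XX h.ti hu ht hy]
  ring

theorem gs_succ (hu : Sm (Icc 0 t₁) u) (j : ℕ) : Gs S (Icc 0 t₁) u (j + 1) t y =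
    EE S j t y * XX^[j + 1] u t y +
      (XX (Gs S (Icc 0 t₁) u j) t y - LL S t y * Gs S (Icc 0 t₁) u j t y) := by
  rw [HX.eq (u := Gs S (Icc 0 t₁) u j) ((hx_sm (sm_Pt h (sm_iter h.ti hu j)) ht hy).sub
    ((hx_sm (sm_dd h j) ht hy).mul (hx_sm (sm_iter h.ti hu (j + 1)) ht hy))) hy,
    XX_Pt h ht hy (sm_iter h.ti hu j)]
  have e : dd S (j + 1) t y = dd S j t y - (4 * y + 4 * (1 - y) * LL S t y) := by
    simp only [dd]
    push_cast
    ring
  simp only [Gs, EE, e, Function.iterate_succ_apply']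
  ring

theorem gs_A : Gs S (Icc 0 t₁) S.A 0 t y = -20 * y + (1 - 2 * y) * (psi S t y * S.B t y) := by
  have e : exp (2 * S.A t y) * exp (-2 * S.A t y) = 1 := by
    rw [← exp_add]
    simp
  have e1 := St.XX_XX t y (h.sm_A.smAt ht hy) h.ti ht hy
  simp only [Gs, Pt, dd, Function.iterate_succ_apply', Function.iterate_zero_apply, e1,
    dT_eq h.ti ht (h.sol.eqA t ht y hy), rhsA, DD, psi]
  simp only [XX]
  push_cast
  linear_combination
    (y * (4 * (y * (1 - y)) * dY (dY S.A) t y + 12 * (1 - 2 * y) * dY S.A t y - 20)) * e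

theorem gs_β : Gs S (Icc 0 t₁) S.β 0 t y = -4 * tt S t y := by
  have e : exp (2 * S.A t y) * exp (-2 * S.A t y) = 1 := by
    rw [← exp_add]
    simp
  have e1 := St.XX_XX t y (h.sm_β.smAt ht hy) h.ti ht hy
  simp only [Gs, Pt, dd, Function.iterate_succ_apply', Function.iterate_zero_apply, e1,
    dT_eq h.ti ht (h.sol.eqβ t ht y hy), rhsB, DD, psi, tt]
  simp only [XX]
  push_cast
  linear_combination
    (y * (4 * (y * (1 - y)) * dY (dY S.β) t y + 12 * (1 - 2 * y) * dY S.β t y)) * e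

theorem gs_A1 : XX (Gs S (Icc 0 t₁) S.A 0) t y - LL S t y * Gs S (Icc 0 t₁) S.A 0 t y =
    40 * y * XX S.A t y - 2 * mu S t y + (1 - 2 * y) * WB S t y := by
  rw [XX_congr_on (v := fun s z => -20 * z + (1 - 2 * z) * (psi S s z * S.B s z)) ro_Icc
    (fun z hz => gs_A h ht hz) hy,
    HX.eq (u := fun s z => -20 * z + (1 - 2 * z) * (psi S s z * S.B s z))
    ((hx_id.cmul (-20)).add (((hx_const 1).sub (hx_id.cmul 2)).mul
      ((hx_psi h ht hy).mul (hx_sm h.sm_B ht hy)))) hy, gs_A h ht hy, ← psi_XB h ht hy]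
  simp only [mu, LL]
  ring

theorem gs_β1 : XX (Gs S (Icc 0 t₁) S.β 0) t y - LL S t y * Gs S (Icc 0 t₁) S.β 0 t y =
    8 * (tt S t y * XX S.β t y) := by
  rw [XX_congr_on (v := fun s z => -4 * tt S s z) ro_Icc (fun z hz => gs_β h ht hz) hy,
    HX.eq (u := fun s z => -4 * tt S s z) ((hx_sm (sm_tt h) ht hy).cmul (-4)) hy, gs_β h ht hy,
    XX_tt h ht hy]
  ring

end

end Vale.Agent.P244.P0
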