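import Vale.Agent.P244.P0.Id
import Vale.Agent.P244.Kit.MP

/-!
P0: the Bernstein step (one more Euler derivative), by the maximum principle.
-/

namespace Vale.Agent.P244.P0

open scoped ContDiff Topology
open Set Filter Real

theorem step_prod {C p a s : ℝ} (hp : |p| ≤ C) (ha : |a| ≤ C * (1 + s)) :
    p * a ≤ C * (C * (1 + s)) :=
  (le_abs_self _).trans (by
    rw [abs_mul]
    exact mul_le_mul hp ha (abs_nonneg _) ((abs_nonneg _).trans hp))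

theorem step_alg {C y ψ m p1 p2 q1 q2 r1 r2 a1 a2 b1 b2 : ℝ} (hC : 1 ≤ C) (hy : y ∈ Icc (0 : ℝ) 1)
    (hψ : y / 100 ≤ ψ) (hp1 : |p1| ≤ C) (hp2 : |p2| ≤ C) (ha1 : |a1| ≤ C * (1 + |q1| + |q2|))
    (ha2 : |a2| ≤ C * (1 + |q1| + |q2|)) (hb1 : |b1| ≤ C * (1 + |q1| + |q2|))
    (hb2 : |b2| ≤ C * (1 + |q1| + |q2|)) (hm : 6 * C ^ 3 + 8 * C ^ 4 + 4 * C ^ 2 + 2 ≤ m)
    (h0 : q1 ^ 2 + q2 ^ 2 + 3 * C * (p1 ^ 2 + p2 ^ 2) = m) :
    2 * q1 * b1 + 2 * q2 * b2 - 8 * (1 - y) * (r1 ^ 2 + r2 ^ 2) +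
      3 * C * (2 * p1 * a1 + 2 * p2 * a2 - 8 * (1 - y) * (q1 ^ 2 + q2 ^ 2)) -
      200 * (2 + 12 * C) * ψ * m < 0 := by
  have C0 : 0 < C := by linarith
  set s := |q1| + |q2| with hs
  set Q := q1 ^ 2 + q2 ^ 2 with hQ
  have s0 : 0 ≤ s := by positivity
  have s2 : s ^ 2 ≤ 2 * Q := by
    rw [hs, hQ, ← sq_abs q1, ← sq_abs q2]
    nlinarith [sq_nonneg (|q1| - |q2|)]
  have k1 : q1 * b1 ≤ |q1| * (C * (1 + s)) := (le_abs_self _).trans (by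
    rw [abs_mul]
    exact mul_le_mul_of_nonneg_left (by rwa [hs, ← add_assoc]) (abs_nonneg _))
  have k2 : q2 * b2 ≤ |q2| * (C * (1 + s)) := (le_abs_self _).trans (by
    rw [abs_mul]
    exact mul_le_mul_of_nonneg_left (by rwa [hs, ← add_assoc]) (abs_nonneg _))
  have k3 : 2 * q1 * b1 + 2 * q2 * b2 ≤ C + 6 * C * Q := by
    have e : |q1| * (C * (1 + s)) + |q2| * (C * (1 + s)) = C * (s + s ^ 2) := by
      rw [← add_mul, ← hs]
      ring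
    have : 2 * (s + s ^ 2) ≤ 1 + 6 * Q := by nlinarith [sq_nonneg (s - 1)]
    nlinarith [mul_le_mul_of_nonneg_left this C0.le]
  have k4 := step_prod (s := s) (a := a1) hp1 (by rwa [hs, ← add_assoc])
  have k5 := step_prod (s := s) (a := a2) hp2 (by rwa [hs, ← add_assoc])
  have k6 : 2 * p1 * a1 + 2 * p2 * a2 ≤ Q + (8 * C ^ 4 + 4 * C ^ 2) := by
    nlinarith [sq_nonneg (s - 4 * C ^ 2)]
  have k7 : 3 * C * (2 * p1 * a1 + 2 * p2 * a2) ≤ 3 * C * (Q + (8 * C ^ 4 + 4 * C ^ 2)) :=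
    mul_le_mul_of_nonneg_left k6 (by positivity)
  have k8 : 0 ≤ (1 - y) * (r1 ^ 2 + r2 ^ 2) := mul_nonneg (sub_nonneg.2 hy.2) (by positivity)
  have Q0 : 0 ≤ Q := by positivity
  have P0 : 0 ≤ 3 * C * (p1 ^ 2 + p2 ^ 2) := by positivity
  have P1 : 3 * C * (p1 ^ 2 + p2 ^ 2) ≤ 3 * C * (2 * C ^ 2) := by
    have := sq_le_sq' (abs_le.1 hp1).1 (abs_le.1 hp1).2
    have := sq_le_sq' (abs_le.1 hp2).1 (abs_le.1 hp2).2
    exact mul_le_mul_of_nonneg_left (by linarith) (by positivity)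
  have c3 : 0 ≤ C ^ 3 := by positivity
  have c4 : 0 ≤ 8 * C ^ 4 + 4 * C ^ 2 := by positivity
  have m0 : 0 < m := by linarith
  have CQ : 0 ≤ C * Q := by positivity
  rcases le_total y (1 / 2) with h | h
  · have g1 : 0 ≤ 200 * (2 + 12 * C) * ψ * m := by
      have : 0 ≤ ψ := le_trans (by linarith [hy.1]) hψ
      positivity
    have g2 : C * Q * (1 / 2) ≤ C * Q * (1 - y) := mul_le_mul_of_nonneg_left (by linarith) CQ
    have g3 : C * (8 * C ^ 4 + 4 * C ^ 2 + 2) ≤ C * Q :=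
      mul_le_mul_of_nonneg_left (by linarith) C0.le
    linarith
  · have g1 : (2 + 12 * C) * m * 1 ≤ (2 + 12 * C) * m * (200 * ψ) :=
      mul_le_mul_of_nonneg_left (by linarith) (by positivity)
    have g2 : 0 ≤ C * Q * (1 - y) := mul_nonneg CQ (sub_nonneg.2 hy.2)
    have g3 : C * Q ≤ C * m := mul_le_mul_of_nonneg_left (by linarith) C0.le
    have g4 : C * (8 * C ^ 4 + 4 * C ^ 2 + 2) ≤ C * m :=
      mul_le_mul_of_nonneg_left (by linarith) C0.le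
    linarith

variable {S : St} {t₁ : ℝ} {p1 p2 d : Fn}

/-- The Bernstein function. -/
noncomputable def FF (p1 p2 : Fn) (Λ M γ : ℝ) : Fn := fun t y =>
  XX p1 t y ^ 2 + XX p2 t y ^ 2 + Λ * (p1 t y ^ 2 + p2 t y ^ 2) - M * exp (γ * t)

theorem sm_FF (hI : TI (Icc 0 t₁)) (h1 : Sm (Icc 0 t₁) p1) (h2 : Sm (Icc 0 t₁) p2) (Λ M γ : ℝ) :
    Sm (Icc 0 t₁) (FF p1 p2 Λ M γ) :=
  St.Sol.id0_sm fun _ ht _ hy =>
    (((((sm_XX hI h1).smAt ht hy).pow 2).add (((sm_XX hI h2).smAt ht hy).pow 2)).add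
      (St.Sol.id0_c (((h1.smAt ht hy).pow 2).add ((h2.smAt ht hy).pow 2)) Λ)).sub
      (St.Sol.id0_c (St.Sol.id0_c smAt_t γ).exp M)

theorem pt_FF (hI : TI (Icc 0 t₁)) (h1 : Sm (Icc 0 t₁) p1) (h2 : Sm (Icc 0 t₁) p2) (Λ M γ : ℝ)
    {t y : ℝ} (ht : t ∈ Icc 0 t₁) (hy : y ∈ Icc (0 : ℝ) 1) (e : ℝ) :
    Pt S (Icc 0 t₁) (FF p1 p2 Λ M γ) t y - e * XX (FF p1 p2 Λ M γ) t y =
      2 * XX p1 t y * (Pt S (Icc 0 t₁) (XX p1) t y - e * XX (XX p1) t y) +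
      2 * XX p2 t y * (Pt S (Icc 0 t₁) (XX p2) t y - e * XX (XX p2) t y) -
      8 * (1 - y) * (XX (XX p1) t y ^ 2 + XX (XX p2) t y ^ 2) +
      Λ * (2 * p1 t y * (Pt S (Icc 0 t₁) p1 t y - e * XX p1 t y) +
        2 * p2 t y * (Pt S (Icc 0 t₁) p2 t y - e * XX p2 t y) -
        8 * (1 - y) * (XX p1 t y ^ 2 + XX p2 t y ^ 2)) - γ * psi S t y * (M * exp (γ * t)) := by
  have q1 := sm_XX hI h1
  have q2 := sm_XX hI h2
  have eX : ∀ z ∈ Icc (0 : ℝ) 1, XX (FF p1 p2 Λ M γ) t z =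
      2 * XX p1 t z * XX (XX p1) t z + 2 * XX p2 t z * XX (XX p2) t z +
        Λ * (2 * p1 t z * XX p1 t z + 2 * p2 t z * XX p2 t z) := fun z hz => by
    rw [HX.eq (u := FF p1 p2 Λ M γ) ((((hx_sm q1 ht hz).sq.add (hx_sm q2 ht hz).sq).add
      (((hx_sm h1 ht hz).sq.add (hx_sm h2 ht hz).sq).cmul Λ)).sub (hx_const _)) hz, sub_zero]
  have eXX := (XX_congr_on (v := fun s z => 2 * XX p1 s z * XX (XX p1) s z +
    2 * XX p2 s z * XX (XX p2) s z + Λ * (2 * p1 s z * XX p1 s z + 2 * p2 s z * XX p2 s z))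
    ro_Icc eX hy).trans (HX.eq (((((hx_sm q1 ht hy).cmul 2).mul (hx_sm (sm_XX hI q1) ht hy)).add
      (((hx_sm q2 ht hy).cmul 2).mul (hx_sm (sm_XX hI q2) ht hy))).add
      (((((hx_sm h1 ht hy).cmul 2).mul (hx_sm q1 ht hy)).add
        (((hx_sm h2 ht hy).cmul 2).mul (hx_sm q2 ht hy))).cmul Λ)) hy)
  have eT := dT_eq (u := FF p1 p2 Λ M γ) (y := y) hI ht (((((q1.hasT ht hy).fun_pow 2).fun_add
    ((q2.hasT ht hy).fun_pow 2)).fun_add ((((h1.hasT ht hy).fun_pow 2).fun_add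
      ((h2.hasT ht hy).fun_pow 2)).const_mul Λ)).fun_sub
      ((((hasDerivWithinAt_id t _).const_mul γ).exp).const_mul M))
  simp only [Pt, eT, eX y hy, eXX, id]
  push_cast
  ring

theorem step (C : ℝ) (hC : 1 ≤ C) : ∃ M, ∀ (S : St) (t₁ : ℝ) (p1 p2 d : Fn), 0 < t₁ → t₁ ≤ 1 →
    Sm (Icc 0 t₁) p1 → Sm (Icc 0 t₁) p2 → (∀ t ∈ Icc 0 t₁, d t 1 ≤ 0) →
    (∀ y ∈ Icc (0 : ℝ) 1, |XX p1 0 y| ≤ C ∧ |XX p2 0 y| ≤ C) →
    (∀ t ∈ Icc 0 t₁, ∀ y ∈ Icc (0 : ℝ) 1, y / 100 ≤ psi S t y ∧ |p1 t y| ≤ C ∧ |p2 t y| ≤ C ∧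
      |Pt S (Icc 0 t₁) p1 t y - d t y * XX p1 t y| ≤ C * (1 + |XX p1 t y| + |XX p2 t y|) ∧
      |Pt S (Icc 0 t₁) p2 t y - d t y * XX p2 t y| ≤ C * (1 + |XX p1 t y| + |XX p2 t y|) ∧
      |Pt S (Icc 0 t₁) (XX p1) t y - d t y * XX (XX p1) t y| ≤
        C * (1 + |XX p1 t y| + |XX p2 t y|) ∧
      |Pt S (Icc 0 t₁) (XX p2) t y - d t y * XX (XX p2) t y| ≤
        C * (1 + |XX p1 t y| + |XX p2 t y|)) →
    ∀ t ∈ Icc 0 t₁, ∀ y ∈ Icc (0 : ℝ) 1, |XX p1 t y| ≤ M ∧ |XX p2 t y| ≤ M := by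
  have C0 : 0 < C := by linarith
  set M := 6 * C ^ 3 + 8 * C ^ 4 + 4 * C ^ 2 + 2 with hM
  set γ := 200 * (2 + 12 * C) with hγ
  have M0 : 0 < M := by positivity
  have γ0 : 0 < γ := by positivity
  refine ⟨1 + M * exp γ, fun S t₁ p1 p2 d h0 h1 s1 s2 hd hi hb => ?_⟩
  have hI := ti_Icc h0
  have sF := sm_FF hI s1 s2 (3 * C) M γ
  have hm : ∀ t, 0 ≤ t → M ≤ M * exp (γ * t) := fun t ht =>
    le_mul_of_one_le_right M0.le (one_le_exp (by positivity))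
  have key : ∀ t ∈ Icc 0 t₁, ∀ y ∈ Icc (0 : ℝ) 1, FF p1 p2 (3 * C) M γ t y < 0 := by
    by_contra hn
    push Not at hn
    obtain ⟨t, ht, y, hy, hn⟩ := hn
    obtain ⟨⟨t, y⟩, ⟨ht, hy⟩, _, k0, k1, k2⟩ := mp_first (ι := Unit)
      (F := fun _ => FF p1 p2 (3 * C) M γ) (isCompact_Icc.prod isCompact_Icc) (fun _ => sF.cont)
      ⟨(t, y), ⟨ht, hy⟩, (), hn⟩
    simp only at ht hy k0 k1 k2
    obtain ⟨b0, b1, b2, b3, b4, b5, b6⟩ := hb t ht y hy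
    have low : ∀ a b : ℝ, |a| ≤ C → |b| ≤ C →
        a ^ 2 + b ^ 2 + 3 * C * (p1 t y ^ 2 + p2 t y ^ 2) - M * exp (γ * t) < 0 := by
      intro a b ha hb
      have := sq_le_sq' (abs_le.1 ha).1 (abs_le.1 ha).2
      have := sq_le_sq' (abs_le.1 hb).1 (abs_le.1 hb).2
      have := sq_le_sq' (abs_le.1 b1).1 (abs_le.1 b1).2
      have := sq_le_sq' (abs_le.1 b2).1 (abs_le.1 b2).2
      have : 3 * C * (p1 t y ^ 2 + p2 t y ^ 2) ≤ 3 * C * (2 * C ^ 2) :=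
        mul_le_mul_of_nonneg_left (by linarith) (by positivity)
      have := hm t ht.1
      have : 0 ≤ C ^ 4 := by positivity
      have : 0 ≤ C ^ 2 := by positivity
      linarith
    have t0 : 0 < t := by
      refine ht.1.lt_of_ne fun e => ?_
      subst e
      exact absurd k0 (not_le.2 (low _ _ (hi y hy).1 (hi y hy).2))
    have y0 : 0 < y := by
      refine hy.1.lt_of_ne fun e => ?_
      subst e
      exact absurd k0 (not_le.2 (low _ _ (by simp [XX, C0.le]) (by simp [XX, C0.le])))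
    obtain ⟨f0, fT⟩ := mp_T (Ω := Icc 0 t₁ ×ˢ Icc 0 1) ⟨t0, ht.2⟩ hy (sF.smAt ht hy)
      (by
        filter_upwards [Icc_mem_nhdsLT_of_mem (⟨t0, ht.2⟩ : t ∈ Ioc 0 t₁)] with s hs
        exact ⟨hs, hy⟩) k0 fun q hq hlt => k1 q hq hlt ()
    have ψ0 : 0 ≤ psi S t y := le_trans (by positivity) b0
    have pos : 0 ≤ Pt S (Icc 0 t₁) (FF p1 p2 (3 * C) M γ) t y -
        d t y * XX (FF p1 p2 (3 * C) M γ) t y := by
      have a0 := mul_nonneg ψ0 fT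
      rcases hy.2.eq_or_lt with e | e
      · subst e
        have a1 := mp_one ht (sF.smAt ht hy) (by
          filter_upwards [Icc_mem_nhdsLT (zero_lt_one' ℝ)] with z hz
          exact k2 (t, z) ⟨ht, hz⟩ rfl ())
        have a2 := mul_nonneg (neg_nonneg.2 (hd t ht)) a1
        have a3 : XX (FF p1 p2 (3 * C) M γ) t 1 = dY (FF p1 p2 (3 * C) M γ) t 1 := one_mul _
        simp only [Pt, a3]
        linarith
      · obtain ⟨-, -, -, -, a1, a2⟩ := mp_Y ht h0 ⟨y0, e⟩ (sF.smAt ht hy) (by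
          filter_upwards [Icc_mem_nhds y0 e] with z hz
          exact k2 (t, z) ⟨ht, hz⟩ rfl ())
        have a3 := mul_nonneg (sub_pos.2 e).le (neg_nonneg.2 a2)
        simp only [Pt, a1]
        linarith
    rw [pt_FF hI s1 s2 _ _ _ ht hy] at pos
    exact absurd pos (not_le.2 (step_alg hC hy b0 b1 b2 b3 b4 b5 b6 (hm t ht.1) (sub_eq_zero.1 f0)))
  intro t ht y hy
  have k := key t ht y hy
  have k1 : M * exp (γ * t) ≤ M * exp γ := mul_le_mul_of_nonneg_left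
    (exp_le_exp.2 (mul_le_of_le_one_right γ0.le (ht.2.trans h1))) M0.le
  have k2 : 0 ≤ 3 * C * (p1 t y ^ 2 + p2 t y ^ 2) := by positivity
  simp only [FF] at k
  have k3 : ∀ a : ℝ, |a| ≤ 1 + a ^ 2 := fun a => by
    rw [← sq_abs]
    nlinarith [sq_nonneg (|a| - 1), abs_nonneg a]
  exact ⟨(k3 _).trans (by linarith [sq_nonneg (XX p2 t y)]),
    (k3 _).trans (by linarith [sq_nonneg (XX p1 t y)])⟩

end Vale.Agent.P244.P0
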